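import Mathlib

namespace Vale.Agent.P347

open Real

/-- a `C²` cutoff going from `0` (for `y ≤ δ/4`) to `1` (for `y ≥ δ/2`) -/
structure IsCut (δ : ℝ) (ψ ψ1 ψ2 : ℝ → ℝ) (P : ℝ) : Prop where
  d1 : ∀ y, HasDerivAt ψ (ψ1 y) y
  d2 : ∀ y, HasDerivAt ψ1 (ψ2 y) y
  smooth : ContDiff ℝ 2 ψ
  nonneg : ∀ y, 0 ≤ ψ y
  le_one : ∀ y, ψ y ≤ 1
  zero : ∀ y, y ≤ δ / 4 → ψ y = 0
  one : ∀ y, δ / 2 ≤ y → ψ y = 1
  b1 : ∀ y, |ψ1 y| ≤ P
  b2 : ∀ y, |ψ2 y| ≤ P

lemma bounded_of_supp {F : ℝ → ℝ} (hF : Continuous F) (h0 : ∀ y, y < 0 → F y = 0)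
    (h1 : ∀ y, 1 < y → F y = 0) : ∃ P, ∀ y, |F y| ≤ P := by
  obtain ⟨P, hP⟩ := (isCompact_Icc (a := (0 : ℝ)) (b := 1)).exists_bound_of_continuousOn
    hF.continuousOn
  refine ⟨max P 0, fun y => ?_⟩
  by_cases h : y ∈ Set.Icc (0 : ℝ) 1
  · exact (hP y h).trans (le_max_left _ _)
  · rw [Set.mem_Icc, not_and_or, not_le, not_le] at h
    rcases h with h | h
    · rw [h0 y h]; simp
    · rw [h1 y h]; simp

theorem exists_cut {δ : ℝ} (hδ : 0 < δ) : ∃ ψ ψ1 ψ2 P, IsCut δ ψ ψ1 ψ2 P := by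
  have hs : ContDiff ℝ (⊤ : ℕ∞) smoothTransition := smoothTransition.contDiff
  have c1 := contDiff_infty_iff_deriv.1 hs
  have c2 := contDiff_infty_iff_deriv.1 c1.2
  have c3 := contDiff_infty_iff_deriv.1 c2.2
  have z0 : ∀ y < 0, smoothTransition =ᶠ[nhds y] fun _ => (0 : ℝ) := by
    intro y hy
    filter_upwards [Iio_mem_nhds hy] with s hs
    exact smoothTransition.zero_of_nonpos (le_of_lt hs)
  have z1 : ∀ y, 1 < y → smoothTransition =ᶠ[nhds y] fun _ => (1 : ℝ) := by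
    intro y hy
    filter_upwards [Ioi_mem_nhds hy] with s hs
    exact smoothTransition.one_of_one_le (le_of_lt hs)
  have e0 : ∀ y < 0, deriv smoothTransition y = 0 := by
    intro y hy
    rw [(z0 y hy).deriv_eq]; simp
  have e1 : ∀ y, 1 < y → deriv smoothTransition y = 0 := by
    intro y hy
    rw [(z1 y hy).deriv_eq]; simp
  have f0 : ∀ y < 0, deriv (deriv smoothTransition) y = 0 := by
    intro y hy
    have : deriv smoothTransition =ᶠ[nhds y] fun _ => (0 : ℝ) := by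
      filter_upwards [Iio_mem_nhds hy] with s hs
      exact e0 s hs
    rw [this.deriv_eq]; simp
  have f1 : ∀ y, 1 < y → deriv (deriv smoothTransition) y = 0 := by
    intro y hy
    have : deriv smoothTransition =ᶠ[nhds y] fun _ => (0 : ℝ) := by
      filter_upwards [Ioi_mem_nhds hy] with s hs
      exact e1 s hs
    rw [this.deriv_eq]; simp
  obtain ⟨P1, hP1⟩ := bounded_of_supp c1.2.continuous e0 e1
  obtain ⟨P2, hP2⟩ := bounded_of_supp c2.2.continuous f0 f1
  have haff : ∀ y : ℝ, HasDerivAt (fun y => 4 / δ * y - 1) (4 / δ) y := by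
    intro y
    have := ((hasDerivAt_id y).const_mul (4 / δ)).sub_const 1
    simpa using this
  have hD : 0 < 4 / δ := by positivity
  refine ⟨fun y => smoothTransition (4 / δ * y - 1),
    fun y => deriv smoothTransition (4 / δ * y - 1) * (4 / δ),
    fun y => deriv (deriv smoothTransition) (4 / δ * y - 1) * (4 / δ) * (4 / δ),
    max (P1 * (4 / δ)) (P2 * (4 / δ) * (4 / δ)), ?_, ?_, ?_, ?_, ?_, ?_, ?_, ?_, ?_⟩
  · intro y
    exact (c1.1 _).hasDerivAt.comp y (haff y)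
  · intro y
    exact ((c2.1 _).hasDerivAt.comp y (haff y)).mul_const _
  · have : ContDiff ℝ 2 (fun y : ℝ => 4 / δ * y - 1) := by fun_prop
    exact (hs.of_le (by norm_cast)).comp this
  · intro y; exact smoothTransition.nonneg _
  · intro y; exact smoothTransition.le_one _
  · intro y hy
    apply smoothTransition.zero_of_nonpos
    have : 4 / δ * y ≤ 4 / δ * (δ / 4) := mul_le_mul_of_nonneg_left hy hD.le
    have e : 4 / δ * (δ / 4) = 1 := by field_simp
    linarith
  · intro y hy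
    apply smoothTransition.one_of_one_le
    have : 4 / δ * (δ / 2) ≤ 4 / δ * y := mul_le_mul_of_nonneg_left hy hD.le
    have e : 4 / δ * (δ / 2) = 2 := by field_simp; norm_num
    linarith
  · intro y
    rw [abs_mul, abs_of_pos hD]
    exact (mul_le_mul_of_nonneg_right (hP1 _) hD.le).trans (le_max_left _ _)
  · intro y
    rw [abs_mul, abs_mul, abs_of_pos hD]
    exact (mul_le_mul_of_nonneg_right (mul_le_mul_of_nonneg_right (hP2 _) hD.le) hD.le).trans
      (le_max_right _ _)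

end Vale.Agent.P347
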