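import Mathlib

namespace Vale.Agent.P347

open MeasureTheory

/-- `ℝ^d` with its Euclidean norm. -/
abbrev Sp (d : ℕ) : Type := EuclideanSpace ℝ (Fin d)

/-- The class `𝒱_d`: `V ∈ C²(ℝ^d)`, `V(0) = 0`, `∇V(0) = 0` and `I ≤ ∇²V(x) ≤ 2I` for all `x`. -/
structure IsPotential {d : ℕ} (V : Sp d → ℝ) : Prop where
  contDiff : ContDiff ℝ 2 V
  zero : V 0 = 0
  grad_zero : gradient V 0 = 0
  hess_lower : ∀ x h : Sp d, ‖h‖ ^ 2 ≤ fderiv ℝ (fderiv ℝ V) x h h
  hess_upper : ∀ x h : Sp d, fderiv ℝ (fderiv ℝ V) x h h ≤ 2 * ‖h‖ ^ 2

/-- The Gibbs law `Z⁻¹ exp(-V(x)) dx`. -/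
noncomputable def gibbs {d : ℕ} (V : Sp d → ℝ) : Measure (Sp d) :=
  (volume : Measure (Sp d)).tilted fun x => -V x

/-- A randomised algorithm on `ℝ^d` with `r` adaptive rounds of `q` first-order queries each.
In round `t` it chooses `q` query points as a measurable function of its random seed and of the
answers (pairs of a value and a gradient) to all queries of the rounds before `t`; its output is
a measurable function of the seed and of all answers. -/
structure Algorithm (d r q : ℕ) where
  Seed : Type
  [mSeed : MeasurableSpace Seed]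
  law : Measure Seed
  [prob : IsProbabilityMeasure law]
  query : (t : ℕ) → Seed × (Fin t → Fin q → ℝ × Sp d) → Fin q → Sp d
  query_meas : ∀ t, Measurable (query t)
  output : Seed × (Fin r → Fin q → ℝ × Sp d) → Sp d
  output_meas : Measurable output

attribute [instance] Algorithm.mSeed Algorithm.prob

/-- The answers received in the first `t` rounds when the potential is `V`. -/
noncomputable def Algorithm.answers {d r q : ℕ} (A : Algorithm d r q) (V : Sp d → ℝ)
    (s : A.Seed) : (t : ℕ) → Fin t → Fin q → ℝ × Sp d
  | 0 => Fin.elim0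
  | t + 1 => Fin.snoc (α := fun _ => Fin q → ℝ × Sp d) (A.answers V s t)
      fun i => (V (A.query t (s, A.answers V s t) i),
        gradient V (A.query t (s, A.answers V s t) i))

/-- The output of the algorithm for the potential `V` and the seed `s`. -/
noncomputable def Algorithm.run {d r q : ℕ} (A : Algorithm d r q) (V : Sp d → ℝ)
    (s : A.Seed) : Sp d :=
  A.output (s, A.answers V s r)

/-- For every `V ∈ 𝒱_d` the output law is within total variation distance `κ` of the
Gibbs law of `V`. -/
def Algorithm.Accurate {d r q : ℕ} (A : Algorithm d r q) (κ : ℝ) : Prop :=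
  ∀ V : Sp d → ℝ, IsPotential V → ∀ B : Set (Sp d), MeasurableSet B →
    |(A.law.map (A.run V)).real B - (gibbs V).real B| ≤ κ

end Vale.Agent.P347
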