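import Mathlib

namespace Vale.Agent.P347

open Real

/-- the basic odd bounded perturbation -/
noncomputable def g (t : ℝ) : ℝ := sin t * (1 - cos t)

noncomputable def g1 (t : ℝ) : ℝ := cos t - cos t ^ 2 + sin t ^ 2

noncomputable def g2 (t : ℝ) : ℝ := -sin t + 4 * (sin t * cos t)

lemma hasDerivAt_g (t : ℝ) : HasDerivAt g (g1 t) t := by
  unfold g
  have := (hasDerivAt_sin t).mul ((hasDerivAt_const t (1 : ℝ)).sub (hasDerivAt_cos t))
  refine this.congr_deriv ?_
  unfold g1
  simp
  ring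

lemma hasDerivAt_g1 (t : ℝ) : HasDerivAt g1 (g2 t) t := by
  unfold g1
  have := ((hasDerivAt_cos t).sub ((hasDerivAt_cos t).pow 2)).add ((hasDerivAt_sin t).pow 2)
  refine this.congr_deriv ?_
  unfold g2
  simp
  ring

lemma g_zero : g 0 = 0 := by simp [g]
lemma g1_zero : g1 0 = 0 := by simp [g1]
lemma g_neg (t : ℝ) : g (-t) = -g t := by simp [g]

lemma abs_g_le (t : ℝ) : |g t| ≤ 2 := by
  unfold g
  rw [abs_mul]
  have h1 := abs_sin_le_one t
  have h2 : |1 - cos t| ≤ 2 := by
    rw [abs_le]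
    constructor <;> linarith [neg_one_le_cos t, cos_le_one t]
  calc |sin t| * |1 - cos t| ≤ 1 * 2 := by gcongr
    _ = 2 := by norm_num

lemma abs_g1_le (t : ℝ) : |g1 t| ≤ 2 := by
  unfold g1
  have h1 : sin t ^ 2 = 1 - cos t ^ 2 := by rw [sin_sq]
  rw [h1, abs_le]
  constructor <;> nlinarith [neg_one_le_cos t, cos_le_one t]

lemma abs_g2_le (t : ℝ) : |g2 t| ≤ 3 := by
  unfold g2
  have h : -sin t + 4 * (sin t * cos t) = -sin t + 2 * sin (2 * t) := by
    rw [sin_two_mul]; ring
  rw [h, abs_le]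
  constructor <;>
    linarith [neg_one_le_sin t, sin_le_one t, neg_one_le_sin (2 * t), sin_le_one (2 * t)]

lemma contDiff_g : ContDiff ℝ 2 g := by
  unfold g
  exact contDiff_sin.mul (contDiff_const.sub contDiff_cos)

lemma continuous_g : Continuous g := contDiff_g.continuous

end Vale.Agent.P347
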