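import Mathlib

namespace Vale.Agent.P347

open Real Finset

/-- sign of a boolean -/
def sg (b : Bool) : ℝ := if b then 1 else -1

lemma sg_eq (b : Bool) : sg b = 1 ∨ sg b = -1 := by cases b <;> simp [sg]

lemma sum_exp_pi {κ : Type*} [Fintype κ] [DecidableEq κ] (Y : κ → ℝ) (τ : ℝ) :
    ∑ u : κ → Bool, exp (τ * ∑ k, sg (u k) * Y k) = ∏ k, (2 * cosh (τ * Y k)) := by
  have h1 : ∀ u : κ → Bool, exp (τ * ∑ k, sg (u k) * Y k) =
      ∏ k, exp (τ * (sg (u k) * Y k)) := by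
    intro u
    rw [← exp_sum, mul_sum]
  simp only [h1]
  have h2 := Finset.prod_univ_sum (fun _ : κ => (Finset.univ : Finset Bool))
    (fun k b => exp (τ * (sg b * Y k)))
  rw [Fintype.piFinset_univ] at h2
  rw [← h2]
  refine prod_congr rfl fun k _ => ?_
  rw [Fintype.sum_bool, cosh_eq]
  simp [sg]
  ring

theorem hide_count {ι : Type*} [Fintype ι] [DecidableEq ι] (Γ : Finset ι)
    (y : (ι → Bool) → ι → ℝ) (hy : ∀ ε k, |y ε k| ≤ 2)
    (hdep : ∀ ε ε' : ι → Bool, (∀ k, k ∉ Γ → ε k = ε' k) → y ε = y ε') {δ : ℝ} (hδ : 0 < δ) :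
    (#{ε : ι → Bool | δ / 4 * (#Γ : ℝ) ≤ ∑ k ∈ Γ, sg (ε k) * y ε k} : ℝ) ≤
      2 ^ Fintype.card ι * exp (-(δ ^ 2 / 128)) ^ #Γ := by
  classical
  set τ : ℝ := δ / 16 with hτ
  have hτ0 : 0 < τ := by positivity
  -- pass to exponential moments
  have step1 : (#{ε : ι → Bool | δ / 4 * (#Γ : ℝ) ≤ ∑ k ∈ Γ, sg (ε k) * y ε k} : ℝ) ≤
      ∑ ε : ι → Bool, exp (τ * (∑ k ∈ Γ, sg (ε k) * y ε k) - τ * (δ / 4 * (#Γ : ℝ))) := by
    rw [Finset.card_filter, Nat.cast_sum]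
    refine sum_le_sum fun ε _ => ?_
    split_ifs with h
    · rw [Nat.cast_one]
      apply one_le_exp
      have := mul_le_mul_of_nonneg_left h hτ0.le
      linarith
    · rw [Nat.cast_zero]
      exact (exp_pos _).le
  refine step1.trans ?_
  -- split the coordinates
  let e := Equiv.piEquivPiSubtypeProd (fun k => k ∈ Γ) (fun _ : ι => Bool)
  have step2 : ∑ ε : ι → Bool, exp (τ * (∑ k ∈ Γ, sg (ε k) * y ε k) - τ * (δ / 4 * (#Γ : ℝ)))
      = ∑ p : ((∀ i : {x // x ∈ Γ}, Bool) × (∀ i : {x // ¬ x ∈ Γ}, Bool)),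
        exp (τ * (∑ k ∈ Γ, sg (e.symm p k) * y (e.symm p) k) - τ * (δ / 4 * (#Γ : ℝ))) :=
    (Equiv.sum_comp e.symm (fun ε : ι → Bool =>
      exp (τ * (∑ k ∈ Γ, sg (ε k) * y ε k) - τ * (δ / 4 * (#Γ : ℝ))))).symm
  rw [step2, Fintype.sum_prod_type_right]
  have step3 : ∀ v : (∀ i : {x // ¬ x ∈ Γ}, Bool),
      ∑ u : (∀ i : {x // x ∈ Γ}, Bool),
        exp (τ * (∑ k ∈ Γ, sg (e.symm (u, v) k) * y (e.symm (u, v)) k) -
          τ * (δ / 4 * (#Γ : ℝ))) ≤ 2 ^ #Γ * exp (-(δ ^ 2 / 128)) ^ #Γ := by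
    intro v
    set Y : ι → ℝ := y (e.symm (fun _ => true, v)) with hY
    have hyc : ∀ u, y (e.symm (u, v)) = Y := by
      intro u
      refine hdep _ _ fun k hk => ?_
      simp [e, Equiv.piEquivPiSubtypeProd, hk]
    have hsum : ∀ u : (∀ i : {x // x ∈ Γ}, Bool),
        exp (τ * (∑ k ∈ Γ, sg (e.symm (u, v) k) * y (e.symm (u, v)) k) -
          τ * (δ / 4 * (#Γ : ℝ))) =
        exp (τ * ∑ k : {x // x ∈ Γ}, sg (u k) * Y k) * exp (-(τ * (δ / 4 * (#Γ : ℝ)))) := by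
      intro u
      rw [← exp_add, hyc, ← sub_eq_add_neg]
      congr 3
      rw [← Finset.sum_coe_sort Γ]
      refine sum_congr rfl fun k _ => ?_
      congr 2
      simp [e, Equiv.piEquivPiSubtypeProd]
    simp only [hsum]
    rw [← sum_mul, sum_exp_pi]
    have hprod : ∏ k : {x // x ∈ Γ}, (2 * cosh (τ * Y k)) ≤
        ∏ _k : {x // x ∈ Γ}, (2 * exp (2 * τ ^ 2)) := by
      refine prod_le_prod (fun k _ => by positivity) fun k _ => ?_
      have h1 := cosh_le_exp_half_sq (τ * Y k)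
      have h2 : (τ * Y k) ^ 2 / 2 ≤ 2 * τ ^ 2 := by
        have h3 : Y k ^ 2 ≤ 4 := by
          have := hy (e.symm (fun _ => true, v)) k
          rw [← hY] at this
          rw [← sq_abs]
          nlinarith [abs_nonneg (Y k)]
        rw [mul_pow]
        nlinarith [sq_nonneg τ]
      have h4 := h1.trans (exp_le_exp.2 h2)
      linarith
    refine (mul_le_mul_of_nonneg_right hprod (exp_pos _).le).trans ?_
    rw [prod_const, card_univ, Fintype.card_coe, mul_pow, mul_assoc]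
    refine mul_le_mul_of_nonneg_left ?_ (by positivity)
    rw [← exp_nat_mul, ← exp_nat_mul, ← exp_add]
    apply exp_le_exp.2
    rw [hτ]
    apply le_of_eq
    ring
  refine (sum_le_sum fun v _ => step3 v).trans ?_
  rw [sum_const, card_univ, Fintype.card_fun, Fintype.card_bool, nsmul_eq_mul]
  have hcard : Fintype.card {x // ¬ x ∈ Γ} + #Γ = Fintype.card ι := by
    have := Fintype.card_subtype_compl (fun x => x ∈ Γ)
    rw [this, Fintype.card_coe]
    have := Finset.card_le_univ Γ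
    omega
  rw [← hcard, pow_add]
  push_cast
  apply le_of_eq
  ring

end Vale.Agent.P347
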