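import Mathlib
import Vale.Agent.P347.G

namespace Vale.Agent.P347

open Real MeasureTheory

/-- one dimensional weight -/
noncomputable def W (c t : ℝ) : ℝ := exp (-(3 / 4) * t ^ 2 + c * g t)

lemma W_pos (c t : ℝ) : 0 < W c t := exp_pos _

lemma continuous_W (c : ℝ) : Continuous (W c) := by
  unfold W
  have := continuous_g
  fun_prop

lemma W_neg (c t : ℝ) : W (-c) t = W c (-t) := by
  unfold W
  rw [g_neg]
  congr 1
  ring

lemma W_le (c t : ℝ) : W c t ≤ exp (2 * |c|) * exp (-(3 / 4) * t ^ 2) := by
  unfold W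
  rw [← exp_add]
  apply exp_le_exp.2
  have h1 : c * g t ≤ |c| * 2 := by
    calc c * g t ≤ |c * g t| := le_abs_self _
      _ = |c| * |g t| := abs_mul _ _
      _ ≤ |c| * 2 := by gcongr; exact abs_g_le t
  linarith

lemma integrable_gauss : Integrable (fun t : ℝ => exp (-(3 / 4) * t ^ 2)) :=
  integrable_exp_neg_mul_sq (by norm_num)

lemma integrable_W (c : ℝ) : Integrable (W c) := by
  refine Integrable.mono' (integrable_gauss.const_mul (exp (2 * |c|)))
    (continuous_W c).aestronglyMeasurable ?_
  filter_upwards with t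
  rw [norm_of_nonneg (W_pos c t).le]
  exact W_le c t

lemma integrable_bdd_mul_W (c : ℝ) {F : ℝ → ℝ} (hF : Continuous F) {C : ℝ}
    (hC : ∀ t, |F t| ≤ C) : Integrable (fun t => F t * W c t) := by
  refine (integrable_W c).bdd_mul (c := C) hF.aestronglyMeasurable ?_
  filter_upwards with t
  exact hC t

noncomputable def ZZ (c : ℝ) : ℝ := ∫ t, W c t

lemma ZZ_pos (c : ℝ) : 0 < ZZ c := by
  unfold ZZ
  rw [integral_pos_iff_support_of_nonneg (fun t => (W_pos c t).le) (integrable_W c)]
  have : Function.support (W c) = Set.univ := by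
    ext t
    simp [(W_pos c t).ne']
  rw [this]
  simp

lemma integral_comp_neg_W (c : ℝ) (F : ℝ → ℝ) :
    ∫ t, F (-t) * W (-c) t = ∫ t, F t * W c t := by
  rw [← integral_neg_eq_self (fun t => F t * W c t)]
  refine integral_congr_ae ?_
  filter_upwards with t
  simp only [W_neg]

lemma ZZ_neg (c : ℝ) : ZZ (-c) = ZZ c := by
  have := integral_comp_neg_W c (fun _ => 1)
  simpa [ZZ] using this

/-- the tilt parameter -/
noncomputable def aa : ℝ := 1 / 12

lemma integral_g_W_zero : ∫ t, g t * W 0 t = 0 := by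
  have h := integral_comp_neg_W 0 g
  simp only [g_neg, neg_zero, neg_mul, integral_neg] at h
  linarith

lemma integral_g_W_pos : 0 < ∫ t, g t * W aa t := by
  have i1 : Integrable (fun t => g t * W aa t) :=
    integrable_bdd_mul_W aa continuous_g abs_g_le
  have i0 : Integrable (fun t => g t * W 0 t) :=
    integrable_bdd_mul_W 0 continuous_g abs_g_le
  have h1 : ∫ t, g t * W aa t = ∫ t, (g t * W aa t - g t * W 0 t) := by
    rw [integral_sub i1 i0, integral_g_W_zero, sub_zero]
  rw [h1]
  have hexp : ∀ t, g t * W aa t - g t * W 0 t =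
      g t * (exp (aa * g t) - 1) * exp (-(3 / 4) * t ^ 2) := by
    intro t
    unfold W
    rw [exp_add, zero_mul, add_zero]
    ring
  have hnn : ∀ t, 0 ≤ g t * W aa t - g t * W 0 t := by
    intro t
    rw [hexp]
    refine mul_nonneg ?_ (exp_pos _).le
    have ha : 0 < aa := by unfold aa; norm_num
    rcases le_or_gt 0 (g t) with h | h
    · refine mul_nonneg h ?_
      have : 1 ≤ exp (aa * g t) := one_le_exp (by positivity)
      linarith
    · refine mul_nonneg_of_nonpos_of_nonpos h.le ?_
      have : exp (aa * g t) ≤ 1 := exp_le_one_iff.2 (mul_nonpos_of_nonneg_of_nonpos ha.le h.le)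
      linarith
  rw [integral_pos_iff_support_of_nonneg hnn (i1.sub i0)]
  have hcont : Continuous (fun t => g t * W aa t - g t * W 0 t) := by
    have := continuous_g
    have := continuous_W aa
    have := continuous_W 0
    fun_prop
  have hopen : IsOpen (Function.support (fun t => g t * W aa t - g t * W 0 t)) :=
    hcont.isOpen_support
  refine hopen.measure_pos volume ⟨1, ?_⟩
  have hg : 0 < g 1 := by
    unfold g
    have h1 : 0 < sin 1 := sin_pos_of_pos_of_lt_pi one_pos (by linarith [pi_gt_three])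
    have h2 : cos 1 < 1 := by
      have := cos_lt_cos_of_nonneg_of_le_pi (x := 0) (y := 1) le_rfl (by linarith [pi_gt_three])
        one_pos
      simpa using this
    have : 0 < 1 - cos 1 := by linarith
    positivity
  rw [Function.mem_support, hexp]
  have ha : 0 < aa := by unfold aa; norm_num
  have : 1 < exp (aa * g 1) := one_lt_exp_iff.2 (by positivity)
  have h3 : 0 < exp (aa * g 1) - 1 := by linarith
  positivity

/-- the mean of `g` under the tilted law -/
noncomputable def dl : ℝ := (∫ t, g t * W aa t) / ZZ aa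

lemma dl_pos : 0 < dl := div_pos integral_g_W_pos (ZZ_pos _)

lemma integral_g_W : ∫ t, g t * W aa t = dl * ZZ aa := by
  unfold dl
  field_simp [(ZZ_pos aa).ne']

lemma dl_le : dl ≤ 2 := by
  unfold dl
  rw [div_le_iff₀ (ZZ_pos _)]
  unfold ZZ
  rw [← integral_const_mul]
  refine integral_mono (integrable_bdd_mul_W aa continuous_g abs_g_le)
    ((integrable_W aa).const_mul 2) fun t => ?_
  have := (abs_le.1 (abs_g_le t)).2
  have h2 := W_pos aa t
  simp only
  nlinarith

/-- One-coordinate Chernoff bound. -/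
lemma chernoff_one : ∃ τ : ℝ, 0 < τ ∧ ∃ r : ℝ, 0 < r ∧ r < 1 ∧ ∀ s : ℝ, (s = 1 ∨ s = -1) →
    ∫ t, exp (-τ * (s * g t - dl / 2)) * W (aa * s) t ≤ r * ZZ aa := by
  have hd := dl_pos
  have hd2 := dl_le
  refine ⟨dl / 36, by positivity, 1 - dl ^ 2 / 144, ?_, ?_, ?_⟩
  · nlinarith
  · nlinarith
  -- reduce to s = 1
  have key : ∫ t, exp (-(dl / 36) * (g t - dl / 2)) * W aa t ≤ (1 - dl ^ 2 / 144) * ZZ aa := by
    have hb : ∀ t, |g t - dl / 2| ≤ 3 := by
      intro t
      have := abs_le.1 (abs_g_le t)
      rw [abs_le]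
      constructor <;> linarith [this.1, this.2]
    have hb2 : ∀ t, |-(dl / 36) * (g t - dl / 2)| ≤ 1 := by
      intro t
      rw [abs_mul, abs_neg, abs_of_pos (by positivity : 0 < dl / 36)]
      have := hb t
      nlinarith [abs_nonneg (g t - dl / 2)]
    have hpt : ∀ t, exp (-(dl / 36) * (g t - dl / 2)) * W aa t ≤
        (1 + dl ^ 2 / 72 + 9 * (dl / 36) ^ 2) * W aa t - (dl / 36) * (g t * W aa t) := by
      intro t
      have h1 := abs_exp_sub_one_sub_id_le (hb2 t)
      have h2 := (abs_le.1 h1).2
      have h3 : (-(dl / 36) * (g t - dl / 2)) ^ 2 ≤ 9 * (dl / 36) ^ 2 := by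
        have h4 : (g t - dl / 2) ^ 2 ≤ 9 := by
          have := hb t
          rw [← sq_abs]
          nlinarith [abs_nonneg (g t - dl / 2)]
        rw [mul_pow, neg_sq]
        nlinarith [sq_nonneg (dl / 36)]
      have h5 : exp (-(dl / 36) * (g t - dl / 2)) ≤
          (1 + dl ^ 2 / 72 + 9 * (dl / 36) ^ 2) - (dl / 36) * g t := by
        nlinarith
      have hW := W_pos aa t
      calc exp (-(dl / 36) * (g t - dl / 2)) * W aa t
          ≤ ((1 + dl ^ 2 / 72 + 9 * (dl / 36) ^ 2) - (dl / 36) * g t) * W aa t := by gcongr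
        _ = _ := by ring
    have i1 : Integrable (fun t => g t * W aa t) :=
      integrable_bdd_mul_W aa continuous_g abs_g_le
    have i2 : Integrable (fun t => exp (-(dl / 36) * (g t - dl / 2)) * W aa t) := by
      refine integrable_bdd_mul_W aa (C := exp 1) ?_ ?_
      · have := continuous_g
        fun_prop
      · intro t
        rw [abs_of_pos (exp_pos _)]
        exact exp_le_exp.2 ((le_abs_self _).trans (hb2 t))
    calc ∫ t, exp (-(dl / 36) * (g t - dl / 2)) * W aa t
        ≤ ∫ t, ((1 + dl ^ 2 / 72 + 9 * (dl / 36) ^ 2) * W aa t - (dl / 36) * (g t * W aa t)) :=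
          integral_mono i2 (((integrable_W aa).const_mul _).sub (i1.const_mul _)) hpt
      _ = (1 + dl ^ 2 / 72 + 9 * (dl / 36) ^ 2) * ZZ aa - (dl / 36) * (dl * ZZ aa) := by
          rw [integral_sub ((integrable_W aa).const_mul _) (i1.const_mul _),
            integral_const_mul, integral_const_mul, integral_g_W]
          rfl
      _ = (1 - dl ^ 2 / 144) * ZZ aa := by ring
  rintro s (rfl | rfl)
  · simpa using key
  · have := integral_comp_neg_W aa (fun t => exp (-(dl / 36) * (g t - dl / 2)))
    simp only [g_neg] at this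
    have e : ∀ t, exp (-(dl / 36) * (-1 * g t - dl / 2)) * W (aa * -1) t =
        exp (-(dl / 36) * (-g t - dl / 2)) * W (-aa) t := by
      intro t
      rw [neg_one_mul, mul_neg_one]
    simp only [e]
    rw [this]
    exact key

end Vale.Agent.P347
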